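import Mathlib

/-!
`SL_n` of a finite commutative ring is generated by elementary transvections.
-/

namespace Vale.Agent.P183.R3.H989

open Matrix

section Unit

variable {P : Type*} [CommRing P] [Finite P]

/-- In a finite monoid some positive power of each element is idempotent. -/
theorem exists_pow_idem (x : P) : ∃ m : ℕ, 0 < m ∧ x ^ m * x ^ m = x ^ m := by
  obtain ⟨a, b, hab, h⟩ := Finite.exists_ne_map_eq_of_infinite (fun k : ℕ => x ^ k)
  -- choose a < b
  obtain ⟨i, j, hij, hx⟩ : ∃ i j : ℕ, i < j ∧ x ^ i = x ^ j := by
    rcases lt_or_gt_of_ne hab with h1 | h1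
    · exact ⟨a, b, h1, h⟩
    · exact ⟨b, a, h1, h.symm⟩
  -- period d = j - i, x ^ (i + t) = x ^ (i + t + d * s)
  obtain ⟨d, hd⟩ : ∃ d, j = i + d := ⟨j - i, by omega⟩
  have hd0 : 0 < d := by omega
  have hper : ∀ s t : ℕ, x ^ (i + t + d * s) = x ^ (i + t) := by
    intro s
    induction s with
    | zero => intro t; simp
    | succ s ih =>
      intro t
      have h1 : i + t + d * (s + 1) = (i + d) + (t + d * s) := by ring
      rw [h1, pow_add, ← hd, ← hx, ← pow_add, ← ih t]
      congr 1
      ring
  refine ⟨d * (i + 1), by positivity, ?_⟩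
  rw [← pow_add]
  have h2 : d * (i + 1) = i + (d * (i + 1) - i) := by
    have : i ≤ d * (i + 1) := by nlinarith
    omega
  have h3 : d * (i + 1) + d * (i + 1) = i + (d * (i + 1) - i) + d * (i + 1) := by omega
  rw [h3, hper, ← h2]

/-- Stable range one. -/
theorem exists_isUnit (x a y : P) (h : x * a + y = 1) : ∃ t : P, IsUnit (x + t * y) := by
  obtain ⟨m, hm, he⟩ := exists_pow_idem x
  set e := x ^ m with hedef
  refine ⟨1 - e, ?_⟩
  have key : ∀ z : P, (x + (1 - e) * y) * z = 0 → z = 0 := by
    intro z hz
    have hee : e * e = e := he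
    -- e * z = 0
    have h1 : e * x * z = 0 := by
      have : e * ((x + (1 - e) * y) * z) = e * x * z + (e - e * e) * y * z := by ring
      rw [hz, hee] at this
      simpa using this.symm
    have h2 : e * z = 0 := by
      obtain ⟨k, rfl⟩ : ∃ k, m = k + 1 := ⟨m - 1, by omega⟩
      have : e * z = x ^ k * (e * x * z) := by
        calc e * z = e * e * z := by rw [hee]
          _ = e * x ^ (k + 1) * z := by rw [← hedef]
          _ = x ^ k * (e * x * z) := by ring
      rw [this, h1, mul_zero]
    -- z = (x * (a - 1)) * z
    have h3 : z = x * (a - 1) * z := by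
      have hy : y = 1 - x * a := by linear_combination h
      have h4 : (x + (1 - e) * y) * z = x * z + y * z - y * (e * z) := by ring
      rw [hz, h2, mul_zero, sub_zero, hy] at h4
      linear_combination -h4
    have h5 : ∀ k : ℕ, z = (x * (a - 1)) ^ k * z := by
      intro k
      induction k with
      | zero => simp
      | succ k ih => 
        calc z = (x * (a - 1)) ^ k * z := ih
          _ = (x * (a - 1)) ^ k * (x * (a - 1) * z) := by rw [← h3]
          _ = (x * (a - 1)) ^ (k + 1) * z := by ring
    have h6 := h5 m
    rw [mul_pow, ← hedef] at h6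
    calc z = e * (a - 1) ^ m * z := h6
      _ = (a - 1) ^ m * (e * z) := by ring
      _ = 0 := by rw [h2, mul_zero]
  have : IsArtinianRing P := inferInstance
  refine IsArtinianRing.isUnit_of_mem_nonZeroDivisors ?_
  rw [mem_nonZeroDivisors_iff_right]
  intro z hz
  exact key z (by rw [mul_comm]; exact hz)

/-- Stable range one for a unimodular family. -/
theorem exists_isUnit_sum {n : Type*} [Fintype n] [DecidableEq n] (v w : n → P)
    (h : ∑ i, v i * w i = 1) (s : n) :
    ∃ t : n → P, t s = 0 ∧ (∀ i, v i = 0 → t i = 0) ∧ IsUnit (v s + ∑ i, t i * v i) := by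
  have h1 : v s * w s + ∑ i ∈ Finset.univ.erase s, v i * w i = 1 := by
    rw [← h, ← Finset.add_sum_erase _ _ (Finset.mem_univ s)]
  obtain ⟨c, hc⟩ := exists_isUnit (v s) (w s) _ h1
  classical
  refine ⟨fun i => if i = s ∨ v i = 0 then 0 else c * w i, by simp, fun i hi => by simp [hi], ?_⟩
  convert hc using 2
  rw [Finset.mul_sum, ← Finset.add_sum_erase _ _ (Finset.mem_univ s)]
  simp only [true_or, if_true, zero_mul, zero_add]
  refine Finset.sum_congr rfl fun i hi => ?_
  have hi' : i ≠ s := Finset.ne_of_mem_erase hi
  by_cases hv : v i = 0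
  · simp [hv]
  · simp only [hi', hv, or_self, if_false]
    ring

end Unit

section Gen

variable {P : Type*} [CommRing P] {n : Type*} [Fintype n] [DecidableEq n]

/-- The subgroup generated by the elementary transvections. -/
def Elm (n P : Type*) [CommRing P] [Fintype n] [DecidableEq n] :
    Subgroup (SpecialLinearGroup n P) :=
  Subgroup.closure {g | ∃ i j : n, i ≠ j ∧ ∃ c : P, (g : Matrix n n P) = transvection i j c}

theorem coeM (a b : SpecialLinearGroup n P) :
    ((a * b : SpecialLinearGroup n P) : Matrix n n P) = (a : Matrix n n P) * (b : Matrix n n P) :=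
  rfl

theorem exists_transv (i j : n) (h : i ≠ j) (c : P) :
    ∃ a ∈ Elm n P, (a : Matrix n n P) = transvection i j c :=
  ⟨⟨transvection i j c, det_transvection_of_ne i j h c⟩,
    Subgroup.subset_closure ⟨i, j, h, c, rfl⟩, rfl⟩

/-- Add `w i` times row `k` to every row `i`. -/
theorem addRows (k : n) (w : n → P) (hk : w k = 0) :
    ∃ a ∈ Elm n P, ∀ (M : Matrix n n P) (i j : n),
      ((a : Matrix n n P) * M) i j = M i j + w i * M k j := by
  have main : ∀ s : Finset n, ∃ a ∈ Elm n P, ∀ (M : Matrix n n P) (i j : n),
      ((a : Matrix n n P) * M) i j = M i j + (if i ∈ s then w i else 0) * M k j := by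
    intro s
    induction s using Finset.induction_on with
    | empty => exact ⟨1, one_mem _, by simp⟩
    | insert r s hr ih =>
      obtain ⟨a, ha, hM⟩ := ih
      by_cases hrk : r = k
      · subst hrk
        refine ⟨a, ha, fun M i j => ?_⟩
        rw [hM]
        by_cases hi : i = r
        · subst hi; simp [hk]
        · simp [hi]
      · obtain ⟨b, hb, hbM⟩ := exists_transv r k hrk (w r)
        refine ⟨b * a, mul_mem hb ha, fun M i j => ?_⟩
        change (((b : Matrix n n P) * (a : Matrix n n P)) * M) i j = _
        rw [hbM, Matrix.mul_assoc]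
        by_cases hi : i = r
        · subst hi
          rw [transvection_mul_apply_same, hM, hM]
          simp [hr, hk]
        · rw [transvection_mul_apply_of_ne _ _ _ _ hi, hM]
          simp [hi]
  obtain ⟨a, ha, h⟩ := main Finset.univ
  exact ⟨a, ha, fun M i j => by rw [h]; simp⟩

/-- Add `w j` times column `k` to every column `j`. -/
theorem addCols (k : n) (w : n → P) (hk : w k = 0) :
    ∃ a ∈ Elm n P, ∀ (M : Matrix n n P) (i j : n),
      (M * (a : Matrix n n P)) i j = M i j + w j * M i k := by
  have main : ∀ s : Finset n, ∃ a ∈ Elm n P, ∀ (M : Matrix n n P) (i j : n),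
      (M * (a : Matrix n n P)) i j = M i j + (if j ∈ s then w j else 0) * M i k := by
    intro s
    induction s using Finset.induction_on with
    | empty => exact ⟨1, one_mem _, by simp⟩
    | insert r s hr ih =>
      obtain ⟨a, ha, hM⟩ := ih
      by_cases hrk : r = k
      · subst hrk
        refine ⟨a, ha, fun M i j => ?_⟩
        rw [hM]
        by_cases hj : j = r
        · subst hj; simp [hk]
        · simp [hj]
      · obtain ⟨b, hb, hbM⟩ := exists_transv k r (Ne.symm hrk) (w r)
        refine ⟨a * b, mul_mem ha hb, fun M i j => ?_⟩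
        change (M * ((a : Matrix n n P) * (b : Matrix n n P))) i j = _
        rw [hbM, ← Matrix.mul_assoc]
        by_cases hj : j = r
        · subst hj
          rw [mul_transvection_apply_same, hM, hM]
          simp [hr, hk]
        · rw [mul_transvection_apply_of_ne _ _ _ _ hj, hM]
          simp [hj]
  obtain ⟨a, ha, h⟩ := main Finset.univ
  exact ⟨a, ha, fun M i j => by rw [h]; simp⟩

/-- Add `t i` times row `i`, all `i`, to the row `s`. -/
theorem addToRow (s : n) (t : n → P) (hs : t s = 0) :
    ∃ a ∈ Elm n P, ∀ (M : Matrix n n P) (j : n),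
      ((a : Matrix n n P) * M) s j = M s j + ∑ i, t i * M i j ∧
      ∀ i, i ≠ s → ((a : Matrix n n P) * M) i j = M i j := by
  have main : ∀ S : Finset n, ∃ a ∈ Elm n P, ∀ (M : Matrix n n P) (j : n),
      ((a : Matrix n n P) * M) s j = M s j + ∑ i ∈ S, t i * M i j ∧
      ∀ i, i ≠ s → ((a : Matrix n n P) * M) i j = M i j := by
    intro S
    induction S using Finset.induction_on with
    | empty => exact ⟨1, one_mem _, by simp⟩
    | insert r S hr ih =>
      obtain ⟨a, ha, hM⟩ := ih
      by_cases hrs : r = s
      · subst hrs
        refine ⟨a, ha, fun M j => ⟨?_, (hM M j).2⟩⟩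
        rw [(hM M j).1, Finset.sum_insert hr, hs, zero_mul, zero_add]
      · obtain ⟨b, hb, hbM⟩ := exists_transv s r (Ne.symm hrs) (t r)
        refine ⟨b * a, mul_mem hb ha, fun M j => ⟨?_, fun i hi => ?_⟩⟩
        · change (((b : Matrix n n P) * (a : Matrix n n P)) * M) s j = _
          rw [hbM, Matrix.mul_assoc, transvection_mul_apply_same,
            (hM M j).1, (hM M j).2 r hrs, Finset.sum_insert hr]
          ring
        · change (((b : Matrix n n P) * (a : Matrix n n P)) * M) i j = _
          rw [hbM, Matrix.mul_assoc,
            transvection_mul_apply_of_ne _ _ _ _ hi, (hM M j).2 i hi]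
  exact main Finset.univ

/-- Row `i` and column `i` are those of the identity. -/
def Triv (M : Matrix n n P) (i : n) : Prop :=
  ∀ j, M i j = (1 : Matrix n n P) i j ∧ M j i = (1 : Matrix n n P) j i

theorem mem_Elm_of_triv [Finite P] : ∀ (S : Finset n) (g : SpecialLinearGroup n P),
    (∀ i, i ∉ S → Triv (g : Matrix n n P) i) → g ∈ Elm n P := by
  intro S
  induction S using Finset.induction_on with
  | empty =>
    intro g hg
    have : g = 1 := by
      apply Subtype.ext
      ext i j
      exact (hg i (by simp) j).1
    rw [this]; exact one_mem _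
  | insert k S hk ih =>
    intro g hg
    by_cases hS : S = ∅
    · -- only the entry (k, k)
      subst hS
      have hd : (g : Matrix n n P) = diagonal (fun i => if i = k then g k k else 1) := by
        ext i j
        by_cases hi : i = k
        · by_cases hj : j = k
          · subst hi; subst hj; simp
          · rw [(hg j (by simpa using hj) i).2, diagonal_apply]
            subst hi
            simp [Ne.symm hj]
        · rw [(hg i (by simpa using hi) j).1, diagonal_apply, Matrix.one_apply]
          simp [hi]
      have hdet := g.det_coe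
      rw [hd, det_diagonal, Finset.prod_ite_eq' Finset.univ k (fun _ => (g k k : P))] at hdet
      have hkk : (g k k : P) = 1 := by simpa using hdet
      have : g = 1 := by
        apply Subtype.ext
        rw [hd, hkk]
        simp
      rw [this]; exact one_mem _
    · obtain ⟨s, hs⟩ := Finset.nonempty_iff_ne_empty.2 hS
      have hsk : s ≠ k := by rintro rfl; exact hk hs
      -- unimodular column
      have huni : ∑ i, (g i k : P) * (adjugate (g : Matrix n n P)) k i = 1 := by
        have h1 := adjugate_mul (g : Matrix n n P)
        rw [g.det_coe, one_smul] at h1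
        have h2 := congrFun (congrFun h1 k) k
        rw [Matrix.mul_apply, Matrix.one_apply_eq] at h2
        refine Eq.trans ?_ h2
        exact Finset.sum_congr rfl fun i _ => mul_comm _ _
      obtain ⟨t, ht0, htv, hu⟩ := exists_isUnit_sum (fun i => (g i k : P)) _ huni s
      obtain ⟨a1, ha1, h1⟩ := addToRow s t ht0
      -- g1 = a1 * g
      obtain ⟨u, hu⟩ := hu
      have hout : ∀ i, i ∉ insert k S → i ≠ k ∧ i ≠ s ∧ t i = 0 := by
        intro i hi
        have hik : i ≠ k := by rintro rfl; exact hi (Finset.mem_insert_self _ _)
        have his : i ≠ s := by rintro rfl; exact hi (Finset.mem_insert_of_mem hs)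
        refine ⟨hik, his, htv i ?_⟩
        have := (hg i hi k).1
        rw [Matrix.one_apply_ne hik] at this
        exact this
      have hT1 : ∀ i, i ∉ insert k S → Triv (((a1 * g : SpecialLinearGroup n P)) : Matrix n n P) i := by
        intro i hi j
        obtain ⟨hik, his, hti⟩ := hout i hi
        rw [coeM]
        refine ⟨by rw [(h1 _ j).2 i his]; exact (hg i hi j).1, ?_⟩
        by_cases hj : j = s
        · subst hj
          rw [(h1 _ i).1, (hg i hi j).2]
          have : ∑ l, t l * (g : Matrix n n P) l i = 0 := by
            have h3 : ∀ l ∈ Finset.univ, t l * (g : Matrix n n P) l i = if l = i then t i else 0 := by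
              intro l _
              rw [(hg i hi l).2, Matrix.one_apply]
              by_cases hl : l = i
              · subst hl; simp
              · simp [hl]
            rw [Finset.sum_congr rfl h3]
            simp [hti]
          rw [this, add_zero]
        · rw [(h1 _ i).2 j hj]; exact (hg i hi j).2
      have hk1 : (((a1 * g : SpecialLinearGroup n P)) : Matrix n n P) s k = u := by
        rw [coeM, (h1 _ k).1, ← hu]
      generalize hg1 : a1 * g = g1 at hT1 hk1
      obtain ⟨a2, ha2, h2⟩ := exists_transv k s (Ne.symm hsk) ((1 - g1 k k) * (↑u⁻¹ : P))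
      have hkk2 : (((a2 * g1 : SpecialLinearGroup n P)) : Matrix n n P) k k = 1 := by
        rw [coeM, h2, transvection_mul_apply_same, hk1, mul_assoc,
          Units.inv_mul, mul_one]
        ring
      have hT2 : ∀ i, i ∉ insert k S → Triv (((a2 * g1 : SpecialLinearGroup n P)) : Matrix n n P) i := by
        intro i hi j
        obtain ⟨hik, his, -⟩ := hout i hi
        rw [coeM, h2]
        refine ⟨by rw [transvection_mul_apply_of_ne _ _ _ _ hik]; exact (hT1 i hi j).1, ?_⟩
        by_cases hj : j = k
        · subst hj
          rw [transvection_mul_apply_same, (hT1 i hi s).2, (hT1 i hi j).2,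
            Matrix.one_apply_ne (Ne.symm his), mul_zero, add_zero]
        · rw [transvection_mul_apply_of_ne _ _ _ _ hj]; exact (hT1 i hi j).2
      generalize hg2 : a2 * g1 = g2 at hT2 hkk2
      obtain ⟨a3, ha3, h3⟩ := addRows k (fun i => if i = k then 0 else - g2 i k) (by simp)
      have hcol3 : ∀ i, (((a3 * g2 : SpecialLinearGroup n P)) : Matrix n n P) i k
          = (1 : Matrix n n P) i k := by
        intro i
        rw [coeM, h3, hkk2]
        by_cases hi : i = k
        · subst hi; simp [hkk2]
        · simp [hi]
      have hT3 : ∀ i, i ∉ insert k S → Triv (((a3 * g2 : SpecialLinearGroup n P)) : Matrix n n P) i := by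
        intro i hi j
        obtain ⟨hik, -, -⟩ := hout i hi
        rw [coeM, h3, h3]
        constructor
        · rw [(hT2 i hi j).1]
          have : (g2 : Matrix n n P) i k = 0 := by
            rw [(hT2 i hi k).1, Matrix.one_apply_ne hik]
          simp [hik, this]
        · rw [(hT2 i hi j).2, (hT2 i hi k).2, Matrix.one_apply_ne (Ne.symm hik), mul_zero, add_zero]
      generalize hg3 : a3 * g2 = g3 at hT3 hcol3
      obtain ⟨a4, ha4, h4⟩ := addCols k (fun j => if j = k then 0 else - g3 k j) (by simp)
      have hT4 : ∀ i, i ∉ S → Triv (((g3 * a4 : SpecialLinearGroup n P)) : Matrix n n P) i := by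
        intro i hi j
        rw [coeM, h4, h4]
        by_cases hik : i = k
        · subst hik
          rw [hcol3 i, hcol3 j]
          constructor
          · by_cases hj : j = i
            · subst hj; simp [hcol3]
            · simp [hj, Ne.symm hj]
          · simp
        · have hi' : i ∉ insert k S := by simp [hik, hi]
          rw [hcol3 i, hcol3 j, (hT3 i hi' j).1, (hT3 i hi' j).2]
          constructor
          · simp [hik]
          · have : (g3 : Matrix n n P) k i = 0 := by
              rw [(hT3 i hi' k).2, Matrix.one_apply_ne (Ne.symm hik)]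
            simp [hik, this]
      have h5 := ih _ hT4
      have h6 : g = a1⁻¹ * (a2⁻¹ * (a3⁻¹ * ((g3 * a4) * a4⁻¹))) := by
        rw [← hg3, ← hg2, ← hg1]; group
      rw [h6]
      exact mul_mem (inv_mem ha1) (mul_mem (inv_mem ha2) (mul_mem (inv_mem ha3)
        (mul_mem h5 (inv_mem ha4))))

/-- `SL_n` of a finite commutative ring is generated by the elementary transvections. -/
theorem Elm_eq_top [Finite P] : Elm n P = ⊤ :=
  top_unique fun g _ => mem_Elm_of_triv Finset.univ g fun i hi => absurd (Finset.mem_univ i) hi

end Gen

end Vale.Agent.P183.R3.H989
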